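import Vale.Agent.P173.Main
import Vale.Agent.P173.Asm
import Vale.Agent.P173.CW0
import Vale.Agent.P173.Cd
import Vale.Agent.P173.Data
import Vale.Agent.P173.Raag
import Vale.Agent.P173.Scale

universe u v

open Vale.Agent.P173 in
theorem Vale.Agent.Results.P173.Disproof.result :
    ∃ (Γ : Type) (_ : Group Γ),
      CategoryTheory.projectiveDimension (ModuleCat.of (MonoidAlgebra ℤ Γ)
        (Representation.trivial ℤ Γ ℤ).asModule) = 2 ∧
      ∀ (X : Type u) [TopologicalSpace X] [T2Space X] [Topology.CWComplex (Set.univ : Set X)],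
        (∀ n, 2 < n → IsEmpty (Topology.CWComplex.cell (Set.univ : Set X) n)) →
        ∀ (E : Type v) [TopologicalSpace E] [ContractibleSpace E] (p : E → X),
          IsCoveringMap p → Function.Surjective p →
          ∀ x : X, IsEmpty (FundamentalGroup X x ≃* Γ) := by
  obtain ⟨G, ψ, h1, ⟨t⟩, h2, h3⟩ := exists_data
  refine ⟨BB G, inferInstance, cd_two (bbTri G) (bb_exact G h1) (t := (t, true))
    (t' := (t, false)) (by simp) rfl rfl rfl, fun X _ _ _ hX E _ _ p hp hs x => ⟨fun φ => ?_⟩⟩
  obtain ⟨K⟩ := exists_cx hX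
  obtain ⟨π, R, r, h⟩ := K.exists_asph hp hs φ
  exact no_asph (bbTri G) (bb_exact G h1) (bb_scale G h1 ψ h2 h3) π r h
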